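import Vale.Agent.P358.Final
import Vale.Agent.P358.Key

open Vale.Agent.P358

/-- The classical capacity of the amplitude damping channel (`ν = 0`, and its mirror image
`ν = 1`): it equals the Holevo capacity, for every damping strength `γ`. -/
theorem Vale.Agent.Results.P358.Damping.result (γ ν : ℝ) (hγ : 0 ≤ γ) (hγ1 : γ ≤ 1)
    (hν : ν = 0 ∨ ν = 1) :
    capacity (gad γ ν) = holevo (gad γ ν) ∧
      (∀ n : ℕ, IsLUB (holevoSet (tpow (gad γ ν) n)) (n * holevo (gad γ ν))) ∧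
      IsLUB ((fun q : ℝ => (Real.binEntropy ((1 - γ) * q + γ * ν)
        - eta2 1 ((1 - γ) * γ * (q - ν) ^ 2 + γ * ν * (1 - ν))) / Real.log 2) '' Set.Icc 0 1)
        (holevo (gad γ ν)) ∧
      (∀ n : ℕ, ∀ ρ : Matrix (Qb n) (Qb n) ℂ, IsState ρ → IsState (tpow (gad γ ν) n ρ)) := by
  rcases hν with rfl | rfl
  · exact final_of_key hγ hγ1 le_rfl zero_le_one (key_zero hγ hγ1)
  · exact final_of_key hγ hγ1 zero_le_one le_rfl (key_one hγ hγ1)
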