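import Vale.Agent.P358.Final
import Vale.Agent.P358.KeyAll

open Vale.Agent.P358

/-- The classical capacity of the generalized amplitude damping channel equals its Holevo
capacity, for all parameters `γ, ν ∈ [0, 1]`; the Holevo capacity is additive, and it is given by
a one-parameter formula. -/
theorem Vale.Agent.Results.P358.Full.result (γ ν : ℝ) (hγ : 0 ≤ γ) (hγ1 : γ ≤ 1)
    (hν : 0 ≤ ν) (hν1 : ν ≤ 1) :
    capacity (gad γ ν) = holevo (gad γ ν) ∧
      (∀ n : ℕ, IsLUB (holevoSet (tpow (gad γ ν) n)) (n * holevo (gad γ ν))) ∧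
      IsLUB ((fun q : ℝ => (Real.binEntropy ((1 - γ) * q + γ * ν)
        - eta2 1 ((1 - γ) * γ * (q - ν) ^ 2 + γ * ν * (1 - ν))) / Real.log 2) '' Set.Icc 0 1)
        (holevo (gad γ ν)) ∧
      (∀ n : ℕ, ∀ ρ : Matrix (Qb n) (Qb n) ℂ, IsState ρ → IsState (tpow (gad γ ν) n ρ)) :=
  final_of_key hγ hγ1 hν hν1 (Gen.key_all hγ hγ1 hν hν1)
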