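import Vale.Agent.P358.Final
import Vale.Agent.P358.KeyAll

open Matrix
open Vale.Agent.P358

/-- The classical capacity of the generalized amplitude damping channel equals its Holevo
capacity for all parameters `γ, ν ∈ [0, 1]`; for every `n` the Holevo quantity of `n` uses
attains its maximum `n χ`, and `χ` is the maximum of an explicit function of one variable. -/
theorem Vale.Agent.Results.P358.FullMax.result (γ ν : ℝ) (hγ : 0 ≤ γ) (hγ1 : γ ≤ 1)
    (hν : 0 ≤ ν) (hν1 : ν ≤ 1) :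
    (∀ (q : ℝ) (z : ℂ), gad γ ν !![((1 - q : ℝ) : ℂ), z; star z, (q : ℂ)] =
      !![((1 - ((1 - γ) * q + γ * ν) : ℝ) : ℂ), (√(1 - γ) : ℝ) * z;
         (√(1 - γ) : ℝ) * star z, (((1 - γ) * q + γ * ν : ℝ) : ℂ)]) ∧
    (∀ n : ℕ, ∀ ρ : Matrix (Qb n) (Qb n) ℂ, IsState ρ → IsState (tpow (gad γ ν) n ρ)) ∧
    IsGreatest (holevoSet (gad γ ν)) (holevo (gad γ ν)) ∧
    (∀ n : ℕ, IsGreatest (holevoSet (tpow (gad γ ν) n)) (n * holevo (gad γ ν)) ∧
      holevo (tpow (gad γ ν) n) = n * holevo (gad γ ν)) ∧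
    capacity (gad γ ν) = holevo (gad γ ν) ∧
    IsGreatest ((fun q : ℝ => (Real.binEntropy ((1 - γ) * q + γ * ν)
        - eta2 1 ((1 - γ) * γ * (q - ν) ^ 2 + γ * ν * (1 - ν))) / Real.log 2) '' Set.Icc 0 1)
        (holevo (gad γ ν)) := by
  obtain ⟨h1, h2, h3, h4⟩ := final_of_key hγ hγ1 hν hν1 (Gen.key_all hγ hγ1 hν hν1)
  set φ : ℝ → ℝ := fun q : ℝ => (Real.binEntropy ((1 - γ) * q + γ * ν)
        - eta2 1 ((1 - γ) * γ * (q - ν) ^ 2 + γ * ν * (1 - ν))) / Real.log 2 with hφ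
  have hcont : Continuous φ := by
    rw [hφ]
    unfold eta2
    refine Continuous.div_const ?_ _
    refine Continuous.sub ?_ (Continuous.add ?_ ?_)
    · exact Real.binEntropy_continuous.comp (by fun_prop)
    · exact Real.continuous_negMulLog.comp (by fun_prop)
    · exact Real.continuous_negMulLog.comp (by fun_prop)
  have hne : (φ '' Set.Icc (0 : ℝ) 1).Nonempty := ⟨_, ⟨0, by simp, rfl⟩⟩
  have hcomp : IsCompact (φ '' Set.Icc (0 : ℝ) 1) := isCompact_Icc.image hcont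
  have hmax : IsGreatest (φ '' Set.Icc (0 : ℝ) 1) (holevo (gad γ ν)) := by
    have h5 := hcomp.sSup_mem hne
    rw [h3.csSup_eq hne] at h5
    exact ⟨h5, h3.1⟩
  obtain ⟨q, hq, hqv⟩ := hmax.1
  have hmem : ∀ n : ℕ, (n * holevo (gad γ ν)) ∈ holevoSet (tpow (gad γ ν) n) := by
    intro n
    have h6 := attain hγ hγ1 hν hν1 n hq.1 hq.2
    have h7 : (n * holevo (gad γ ν)) = n * (Real.binEntropy ((1 - γ) * q + γ * ν) -
        sg γ ν (1 - q) q) / Real.log 2 := by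
      rw [← hqv, hφ, mul_div_assoc]
      congr 1
      change _ = rate γ ν q
      rw [rate_eq]
    rw [h7]
    exact h6
  refine ⟨fun q z => ?_, h4, ?_, fun n => ⟨⟨hmem n, (h2 n).1⟩, ?_⟩, h1, hmax⟩
  · ext i j
    fin_cases i <;> fin_cases j <;> simp [gad]
  · have h8 := hmem 1
    have h9 := (h2 1).1
    rw [holevoSet_tpow_one] at h8 h9
    simp only [Nat.cast_one, one_mul] at h8 h9
    exact ⟨h8, h9⟩
  · exact (h2 n).csSup_eq ⟨_, hmem n⟩
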